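import Mathlib

namespace Vale.Agent.Results.P201.ExtensionByUniqueProducts

/-- Extension closure for the zero-divisor property of group algebras:
if `N` is a normal subgroup of a group `G` such that the group algebra `K[N]` has no zero divisors
and the quotient group `G ⧸ N` has the unique-product property, then `K[G]` has no zero divisors. -/
theorem result (K : Type*) [Field K] (G : Type*) [Group G] (N : Subgroup G) [N.Normal]
    (hN : NoZeroDivisors (MonoidAlgebra K N)) (hQ : UniqueProds (G ⧸ N)) :
    NoZeroDivisors (MonoidAlgebra K G) := by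
  classical
  refine ⟨?_⟩
  intro f g hfg
  by_contra hcon
  push Not at hcon
  obtain ⟨hf, hg⟩ := hcon
  -- supports and their images in the quotient
  have hfs : f.coeff.support.Nonempty := by
    rw [Finsupp.support_nonempty_iff]
    simpa using hf
  have hgs : g.coeff.support.Nonempty := by
    rw [Finsupp.support_nonempty_iff]
    simpa using hg
  set A : Finset (G ⧸ N) := f.coeff.support.image (QuotientGroup.mk : G → G ⧸ N) with hA
  set B : Finset (G ⧸ N) := g.coeff.support.image (QuotientGroup.mk : G → G ⧸ N) with hB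
  obtain ⟨a0, ha0, b0, hb0, huniq⟩ :=
    UniqueProds.uniqueMul_of_nonempty (hfs.image _ : A.Nonempty) (hgs.image _ : B.Nonempty)
  obtain ⟨x0, hx0, rfl⟩ := Finset.mem_image.mp ha0
  obtain ⟨y0, hy0, rfl⟩ := Finset.mem_image.mp hb0
  -- the two slices, as elements of K[N]
  have inj1 : Function.Injective (fun n : N => x0 * (n : G)) := by
    intro a b hab
    exact Subtype.ext (mul_left_cancel hab)
  have inj2 : Function.Injective (fun n : N => (n : G) * y0) := by
    intro a b hab
    exact Subtype.ext (mul_right_cancel hab)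
  set f' : MonoidAlgebra K N :=
    MonoidAlgebra.ofCoeff (Finsupp.comapDomain (fun n : N => x0 * (n : G)) f.coeff inj1.injOn)
    with hf'
  set g' : MonoidAlgebra K N :=
    MonoidAlgebra.ofCoeff (Finsupp.comapDomain (fun n : N => (n : G) * y0) g.coeff inj2.injOn)
    with hg'
  have f'_apply : ∀ n : N, f'.coeff n = f.coeff (x0 * (n : G)) := fun n => rfl
  have g'_apply : ∀ n : N, g'.coeff n = g.coeff ((n : G) * y0) := fun n => rfl
  have hf'0 : f' ≠ 0 := by
    intro h
    have h1 : f'.coeff 1 = 0 := by rw [h]; rfl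
    rw [f'_apply] at h1
    simp only [OneMemClass.coe_one, mul_one] at h1
    exact (Finsupp.mem_support_iff.mp hx0) h1
  have hg'0 : g' ≠ 0 := by
    intro h
    have h1 : g'.coeff 1 = 0 := by rw [h]; rfl
    rw [g'_apply] at h1
    simp only [OneMemClass.coe_one, one_mul] at h1
    exact (Finsupp.mem_support_iff.mp hy0) h1
  have hprod : f' * g' ≠ 0 := mul_ne_zero hf'0 hg'0
  obtain ⟨n, hn⟩ : ∃ n : N, (f' * g').coeff n ≠ 0 := by
    by_contra hall
    push Not at hall
    apply hprod
    apply MonoidAlgebra.ext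
    ext n
    exact hall n
  -- key identity
  have key : (f * g).coeff (x0 * (n : G) * y0) = (f' * g').coeff n := by
    rw [MonoidAlgebra.coeff_mul_apply_left, MonoidAlgebra.coeff_mul_apply_left]
    unfold Finsupp.sum
    symm
    refine Finset.sum_bij_ne_zero (fun (m : N) _ _ => x0 * (m : G)) ?_ ?_ ?_ ?_
    · intro m hm _
      rw [Finsupp.mem_support_iff] at hm ⊢
      rwa [f'_apply] at hm
    · intro m1 _ _ m2 _ _ h
      exact inj1 h
    · intro x hx hne
      have hgx : g.coeff (x⁻¹ * (x0 * (n : G) * y0)) ≠ 0 := right_ne_zero_of_mul hne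
      have hxA : (QuotientGroup.mk x : G ⧸ N) ∈ A := Finset.mem_image_of_mem _ hx
      have hyB : (QuotientGroup.mk (x⁻¹ * (x0 * (n : G) * y0)) : G ⧸ N) ∈ B :=
        Finset.mem_image_of_mem _ (Finsupp.mem_support_iff.mpr hgx)
      have hmul : (QuotientGroup.mk x : G ⧸ N) * QuotientGroup.mk (x⁻¹ * (x0 * (n : G) * y0))
          = QuotientGroup.mk x0 * QuotientGroup.mk y0 := by
        rw [← QuotientGroup.mk_mul, ← QuotientGroup.mk_mul]
        rw [QuotientGroup.eq]
        have : (x * (x⁻¹ * (x0 * (n : G) * y0)))⁻¹ * (x0 * y0) = y0⁻¹ * (n : G)⁻¹ * y0 := by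
          group
        rw [this]
        have h2 : y0⁻¹ * (n : G)⁻¹ * y0 = y0⁻¹ * (n : G)⁻¹ * y0⁻¹⁻¹ := by simp
        rw [h2]
        exact Subgroup.Normal.conj_mem inferInstance _ (N.inv_mem n.2) _
      obtain ⟨h1, h2⟩ := huniq hxA hyB hmul
      have hxN : x0⁻¹ * x ∈ N := by
        rw [← QuotientGroup.eq]
        exact h1.symm
      refine ⟨⟨x0⁻¹ * x, hxN⟩, ?_, ?_, ?_⟩
      · rw [Finsupp.mem_support_iff, f'_apply]
        simpa using Finsupp.mem_support_iff.mp hx
      · dsimp only at hne ⊢
        rw [g'_apply, f'_apply]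
        simp only [Subgroup.coe_mul, Subgroup.coe_inv, mul_inv_rev, inv_inv]
        have e1 : x0 * (x0⁻¹ * x) = x := by group
        have e2 : x⁻¹ * x0 * (n : G) * y0 = x⁻¹ * (x0 * (n : G) * y0) := by group
        rw [e1, e2]
        exact hne
      · simp
    · intro m hm hne
      dsimp only
      rw [g'_apply, f'_apply]
      simp only [Subgroup.coe_mul, Subgroup.coe_inv, mul_inv_rev]
      have e2 : (m : G)⁻¹ * (n : G) * y0 = (m : G)⁻¹ * x0⁻¹ * (x0 * (n : G) * y0) := by group
      rw [e2]
  rw [hfg] at key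
  exact hn key.symm

end Vale.Agent.Results.P201.ExtensionByUniqueProducts
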