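import Mathlib
import Vale.Agent.Lib.P201.Slices

namespace Vale.Agent.Results.P201.RelativeHigman

open Vale.Agent.Lib.P201

/-- A relative form of Higman's theorem. Let `S` be a set of subgroups of `G` whose group algebras
over `K` have no zero divisors. If every finitely generated subgroup `H` of `G` is either contained
in a member of `S`, or has a proper normal subgroup `M` with `H ⧸ M` a unique-product group,
then `K[G]` has no zero divisors. -/
theorem result (K : Type*) [Field K] (G : Type*) [Group G]
    (S : Set (Subgroup G))
    (hS : ∀ N ∈ S, NoZeroDivisors (MonoidAlgebra K N))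
    (hG : ∀ H : Subgroup G, H.FG →
      (∃ N ∈ S, H ≤ N) ∨
      (∃ (M : Subgroup H) (_ : M.Normal), M ≠ ⊤ ∧ UniqueProds (H ⧸ M))) :
    NoZeroDivisors (MonoidAlgebra K G) := by
  classical
  have key : ∀ n : ℕ, ∀ f g : MonoidAlgebra K G,
      f.coeff.support.card + g.coeff.support.card = n → f * g = 0 → f = 0 ∨ g = 0 := by
    intro n
    induction n using Nat.strong_induction_on with
    | _ n ih =>
    intro f g hn hfg
    by_contra hcon
    push Not at hcon
    obtain ⟨hf, hg⟩ := hcon
    obtain ⟨f1, g1, h1, hf1, hg1, hcf, hcg⟩ := exists_translate f g hf hg hfg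
    set H : Subgroup G :=
      Subgroup.closure ((f1.coeff.support : Set G) ∪ (g1.coeff.support : Set G)) with hH
    have hHfg : H.FG := by
      refine ⟨f1.coeff.support ∪ g1.coeff.support, ?_⟩
      rw [Finset.coe_union]
    have hfH : ∀ x ∈ f1.coeff.support, x ∈ H := fun x hx =>
      Subgroup.subset_closure (Or.inl (Finset.mem_coe.mpr hx))
    have hgH : ∀ x ∈ g1.coeff.support, x ∈ H := fun x hx =>
      Subgroup.subset_closure (Or.inr (Finset.mem_coe.mpr hx))
    have h1f : (1 : G) ∈ f1.coeff.support := Finsupp.mem_support_iff.mpr hf1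
    have h1g : (1 : G) ∈ g1.coeff.support := Finsupp.mem_support_iff.mpr hg1
    rcases hG H hHfg with ⟨N, hNS, hHN⟩ | ⟨M, hMn, hMtop, hUP⟩
    · rcases eq_zero_of_support_le N (hS N hNS) f1 g1 (fun x hx => hHN (hfH x hx))
        (fun x hx => hHN (hgH x hx)) h1 with h0 | h0
      · exact hf1 (by rw [h0]; rfl)
      · exact hg1 (by rw [h0]; rfl)
    · -- the class of an element of `H` in the quotient `H ⧸ M`
      let c : G → H ⧸ M := fun x => if hx : x ∈ H then (QuotientGroup.mk ⟨x, hx⟩ : H ⧸ M) else 1
      have c_mul : ∀ x y, x ∈ H → y ∈ H → c (x * y) = c x * c y := by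
        intro x y hx hy
        simp only [c, dif_pos hx, dif_pos hy, dif_pos (H.mul_mem hx hy)]
        rfl
      have c_one : c 1 = 1 := by
        simp only [c, dif_pos H.one_mem]
        rfl
      have c_eq_one : ∀ x (hx : x ∈ H), c x = 1 → (⟨x, hx⟩ : H) ∈ M := by
        intro x hx hc
        simp only [c, dif_pos hx] at hc
        exact (QuotientGroup.eq_one_iff _).mp hc
      obtain ⟨a0, ha0, b0, hb0, huniq⟩ := hUP.uniqueMul_of_nonempty
        (⟨c 1, Finset.mem_image_of_mem c h1f⟩ : (f1.coeff.support.image c).Nonempty)
        (⟨c 1, Finset.mem_image_of_mem c h1g⟩ : (g1.coeff.support.image c).Nonempty)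
      obtain ⟨x1, hx1, rfl⟩ := Finset.mem_image.mp ha0
      obtain ⟨y1, hy1, rfl⟩ := Finset.mem_image.mp hb0
      set f2 : MonoidAlgebra K G :=
        MonoidAlgebra.ofCoeff (f1.coeff.filter (fun x => c x = c x1)) with hf2def
      set g2 : MonoidAlgebra K G :=
        MonoidAlgebra.ofCoeff (g1.coeff.filter (fun y => c y = c y1)) with hg2def
      have h2 : f2 * g2 = 0 := by
        refine filter_mul_filter_eq_zero f1 g1 _ _ ?_ h1
        intro x hx y hy x' hx' y' hy' hP hQ hxy
        apply huniq (Finset.mem_image_of_mem _ hx') (Finset.mem_image_of_mem _ hy')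
        rw [← c_mul x' y' (hfH x' hx') (hgH y' hy'), ← hxy, c_mul x y (hfH x hx) (hgH y hy),
          hP, hQ]
      have hsf : f2.coeff.support = f1.coeff.support.filter (fun x => c x = c x1) :=
        Finsupp.support_filter _ _
      have hsg : g2.coeff.support = g1.coeff.support.filter (fun y => c y = c y1) :=
        Finsupp.support_filter _ _
      have hf2 : f2 ≠ 0 := by
        intro h0
        have hmem : x1 ∈ f2.coeff.support := by
          rw [hsf]
          exact Finset.mem_filter.mpr ⟨hx1, rfl⟩
        rw [h0] at hmem
        simp at hmem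
      have hg2 : g2 ≠ 0 := by
        intro h0
        have hmem : y1 ∈ g2.coeff.support := by
          rw [hsg]
          exact Finset.mem_filter.mpr ⟨hy1, rfl⟩
        rw [h0] at hmem
        simp at hmem
      have hsub_f : f2.coeff.support ⊆ f1.coeff.support := by
        rw [hsf]
        exact Finset.filter_subset _ _
      have hsub_g : g2.coeff.support ⊆ g1.coeff.support := by
        rw [hsg]
        exact Finset.filter_subset _ _
      have hle_f := Finset.card_le_card hsub_f
      have hle_g := Finset.card_le_card hsub_g
      by_cases hlt : f2.coeff.support.card + g2.coeff.support.card < n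
      · rcases ih _ hlt f2 g2 rfl h2 with h0 | h0
        · exact hf2 h0
        · exact hg2 h0
      · have heq_f : f2.coeff.support = f1.coeff.support :=
          Finset.eq_of_subset_of_card_le hsub_f (by omega)
        have heq_g : g2.coeff.support = g1.coeff.support :=
          Finset.eq_of_subset_of_card_le hsub_g (by omega)
        have hallf : ∀ x ∈ f1.coeff.support, c x = c x1 := by
          intro x hx
          rw [← heq_f, hsf] at hx
          exact (Finset.mem_filter.mp hx).2
        have hallg : ∀ y ∈ g1.coeff.support, c y = c y1 := by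
          intro y hy
          rw [← heq_g, hsg] at hy
          exact (Finset.mem_filter.mp hy).2
        have hx1c : c x1 = 1 := by rw [← hallf 1 h1f, c_one]
        have hy1c : c y1 = 1 := by rw [← hallg 1 h1g, c_one]
        have hMle : H ≤ M.map H.subtype := by
          refine (Subgroup.closure_le (K := M.map H.subtype)).mpr ?_
          rintro x (hx | hx)
          · have hxs : x ∈ f1.coeff.support := Finset.mem_coe.mp hx
            exact ⟨⟨x, hfH x hxs⟩, c_eq_one x (hfH x hxs) ((hallf x hxs).trans hx1c), rfl⟩
          · have hxs : x ∈ g1.coeff.support := Finset.mem_coe.mp hx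
            exact ⟨⟨x, hgH x hxs⟩, c_eq_one x (hgH x hxs) ((hallg x hxs).trans hy1c), rfl⟩
        apply hMtop
        rw [eq_top_iff]
        intro h _
        obtain ⟨m, hm, hmh⟩ := hMle h.2
        have hmeq : m = h := Subtype.ext hmh
        rwa [← hmeq]
  exact ⟨fun {f g} hfg => key _ f g rfl hfg⟩

end Vale.Agent.Results.P201.RelativeHigman
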